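import Mathlib

/-!
Prekopa-Leindler inequality and the multiplicative Brunn-Minkowski inequality.
-/

set_option autoImplicit false

open MeasureTheory Set
open scoped ENNReal NNReal

namespace Crest.Agent.Lib.BM

/-- volume of the affine image `a * s + c` of a set of reals -/
lemma volume_image_affine {a : ℝ} (ha : 0 < a) (c : ℝ) (s : Set ℝ) :
    volume ((fun x => a * x + c) '' s) = ENNReal.ofReal a * volume s := by
  have h1 : (fun x => a * x + c) '' s = (fun y => a⁻¹ * y) ⁻¹' ((fun y => y + -(a⁻¹ * c)) ⁻¹' s) := by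
    ext z
    simp only [mem_image, mem_preimage]
    constructor
    · rintro ⟨x, hx, rfl⟩
      have : a⁻¹ * (a * x + c) + -(a⁻¹ * c) = x := by field_simp; ring
      rwa [this]
    · intro hz
      refine ⟨_, hz, ?_⟩
      field_simp; ring
  rw [h1, Real.volume_preimage_mul_left (inv_ne_zero ha.ne'), measure_preimage_add_right, inv_inv,
    abs_of_pos ha]

/-- One-dimensional Brunn-Minkowski, compact version. -/
lemma bm_one_compact {a b : ℝ} (ha : 0 < a) (hb : 0 < b) {K L C : Set ℝ}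
    (hK : IsCompact K) (hL : IsCompact L) (hKn : K.Nonempty) (hLn : L.Nonempty)
    (h : ∀ x ∈ K, ∀ y ∈ L, a * x + b * y ∈ C) :
    ENNReal.ofReal a * volume K + ENNReal.ofReal b * volume L ≤ volume C := by
  obtain ⟨s, hsK, hs⟩ := hK.exists_isGreatest hKn
  obtain ⟨t, htL, ht⟩ := hL.exists_isLeast hLn
  set P : Set ℝ := (fun x => a * x + b * t) '' K with hP
  set Q : Set ℝ := (fun y => b * y + a * s) '' L with hQ
  have hPv : volume P = ENNReal.ofReal a * volume K := volume_image_affine ha _ _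
  have hQv : volume Q = ENNReal.ofReal b * volume L := volume_image_affine hb _ _
  have hQm : MeasurableSet Q := (hL.image (by fun_prop)).measurableSet
  have hPC : P ⊆ C := by
    rintro _ ⟨x, hx, rfl⟩; exact h x hx t htL
  have hQC : Q ⊆ C := by
    rintro _ ⟨y, hy, rfl⟩
    have := h s hsK y hy
    simpa [add_comm] using this
  have hint : P ∩ Q ⊆ {a * s + b * t} := by
    rintro z ⟨⟨x, hx, rfl⟩, ⟨y, hy, hyz⟩⟩
    have h1 : x ≤ s := hs hx
    have h2 : t ≤ y := ht hy
    simp only [mem_singleton_iff] at hyz ⊢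
    nlinarith [mul_le_mul_of_nonneg_left h1 ha.le, mul_le_mul_of_nonneg_left h2 hb.le]
  have h0 : volume (P ∩ Q) = 0 := measure_mono_null hint (by simp)
  have hu := measure_union_add_inter (μ := volume) P hQm
  rw [h0, add_zero] at hu
  rw [← hPv, ← hQv, ← hu]
  exact measure_mono (union_subset hPC hQC)

/-- One-dimensional Brunn-Minkowski for nonempty measurable sets. -/
lemma bm_one {a b : ℝ} (ha : 0 < a) (hb : 0 < b) {A B C : Set ℝ}
    (hA : MeasurableSet A) (hB : MeasurableSet B) (hAn : A.Nonempty) (hBn : B.Nonempty)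
    (h : ∀ x ∈ A, ∀ y ∈ B, a * x + b * y ∈ C) :
    ENNReal.ofReal a * volume A + ENNReal.ofReal b * volume B ≤ volume C := by
  obtain ⟨x0, hx0⟩ := hAn
  obtain ⟨y0, hy0⟩ := hBn
  have key : ∀ K ⊆ A, IsCompact K → ∀ L ⊆ B, IsCompact L →
      ENNReal.ofReal a * volume K + ENNReal.ofReal b * volume L ≤ volume C := by
    intro K hKA hK L hLB hL
    have := bm_one_compact ha hb (hK.insert x0) (hL.insert y0) (insert_nonempty _ _)
      (insert_nonempty _ _) (C := C) (by
        intro x hx y hy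
        refine h x ?_ y ?_
        · rcases hx with rfl | hx
          exacts [hx0, hKA hx]
        · rcases hy with rfl | hy
          exacts [hy0, hLB hy])
    refine le_trans ?_ this
    gcongr
    · exact subset_insert _ _
    · exact subset_insert _ _
  rw [hA.measure_eq_iSup_isCompact volume, hB.measure_eq_iSup_isCompact volume]
  simp only [ENNReal.mul_iSup]
  refine ENNReal.biSup_add_biSup_le' (p := fun K => K ⊆ A) (q := fun L => L ⊆ B)
    ⟨∅, empty_subset _⟩ ⟨∅, empty_subset _⟩ ?_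
  intro K hK L hL
  by_cases hKc : IsCompact K
  · by_cases hLc : IsCompact L
    · simpa [hKc, hLc] using key K hK hKc L hL hLc
    · simpa [hKc, hLc] using key K hK hKc ∅ (empty_subset _) isCompact_empty
  · by_cases hLc : IsCompact L
    · simpa [hKc, hLc] using key ∅ (empty_subset _) isCompact_empty L hL hLc
    · simp [hKc, hLc]

/-- Layer cake for extended-valued functions. -/
lemma layer_cake {α : Type*} [MeasurableSpace α] (μ : Measure α) [SFinite μ] {f : α → ℝ≥0∞}
    (hf : Measurable f) :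
    ∫⁻ x, f x ∂μ = ∫⁻ t in Ioi (0 : ℝ), μ {x | ENNReal.ofReal t < f x} := by
  have hm : MeasurableSet {p : α × ℝ | ENNReal.ofReal p.2 < f p.1} :=
    measurableSet_lt (by fun_prop) (by fun_prop)
  have h1 : ∀ x, f x = ∫⁻ t in Ioi (0 : ℝ),
      indicator {p : α × ℝ | ENNReal.ofReal p.2 < f p.1} (fun _ => (1 : ℝ≥0∞)) (x, t) := by
    intro x
    have hm' : MeasurableSet {t : ℝ | ENNReal.ofReal t < f x} :=
      measurableSet_lt (by fun_prop) (by fun_prop)
    have : (fun t : ℝ => indicator {p : α × ℝ | ENNReal.ofReal p.2 < f p.1}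
        (fun _ => (1 : ℝ≥0∞)) (x, t)) =
        indicator {t : ℝ | ENNReal.ofReal t < f x} (fun _ => (1 : ℝ≥0∞)) := by
      ext t; simp [indicator]
    rw [this, lintegral_indicator_const hm', one_mul, Measure.restrict_apply hm']
    by_cases htop : f x = ⊤
    · have : {t : ℝ | ENNReal.ofReal t < f x} ∩ Ioi 0 = Ioi 0 := by
        ext t; simp [htop]
      rw [this, htop]; simp
    · have : {t : ℝ | ENNReal.ofReal t < f x} ∩ Ioi 0 = Ioo 0 (f x).toReal := by
        ext t
        simp only [mem_inter_iff, mem_ofPred_eq, mem_Ioi, mem_Ioo]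
        constructor
        · rintro ⟨h1, h2⟩
          exact ⟨h2, (ENNReal.ofReal_lt_iff_lt_toReal h2.le htop).1 h1⟩
        · rintro ⟨h1, h2⟩
          exact ⟨(ENNReal.ofReal_lt_iff_lt_toReal h1.le htop).2 h2, h1⟩
      rw [this, Real.volume_Ioo, sub_zero, ENNReal.ofReal_toReal htop]
  rw [lintegral_congr h1, lintegral_lintegral_swap
    (f := fun (x : α) (t : ℝ) => indicator {p : α × ℝ | ENNReal.ofReal p.2 < f p.1}
      (fun _ => (1 : ℝ≥0∞)) (x, t)) ((measurable_const.indicator hm).aemeasurable)]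
  refine lintegral_congr fun t => ?_
  have hm' : MeasurableSet {x : α | ENNReal.ofReal t < f x} :=
    measurableSet_lt (by fun_prop) hf
  have : (fun x : α => indicator {p : α × ℝ | ENNReal.ofReal p.2 < f p.1}
      (fun _ => (1 : ℝ≥0∞)) (x, t)) =
      indicator {x : α | ENNReal.ofReal t < f x} (fun _ => (1 : ℝ≥0∞)) := by
    ext x; simp [indicator]
  rw [this, lintegral_indicator_const hm', one_mul]

lemma measurable_superlevel {f : ℝ → ℝ≥0∞} :
    Measurable fun t : ℝ => volume {x | ENNReal.ofReal t < f x} := by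
  refine Antitone.measurable ?_
  intro s t hst
  exact measure_mono fun x hx => lt_of_le_of_lt (ENNReal.ofReal_le_ofReal hst) hx

/-- Normalised one-dimensional Prekopa-Leindler (additive form). -/
lemma pl_one_normalised {a b : ℝ} (ha : 0 < a) (hb : 0 < b) (hab : a + b = 1)
    {f g h : ℝ → ℝ≥0∞} (hf : Measurable f) (hg : Measurable g) (hh : Measurable h)
    (hf1 : ⨆ x, f x = 1) (hg1 : ⨆ x, g x = 1)
    (H : ∀ x y, f x ^ a * g y ^ b ≤ h (a * x + b * y)) :
    ENNReal.ofReal a * (∫⁻ x, f x) + ENNReal.ofReal b * (∫⁻ x, g x) ≤ ∫⁻ x, h x := by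
  rw [layer_cake volume hf, layer_cake volume hg, layer_cake volume hh,
    ← lintegral_const_mul _ measurable_superlevel, ← lintegral_const_mul _ measurable_superlevel,
    ← lintegral_add_left (measurable_superlevel.const_mul _)]
  refine setLIntegral_mono' measurableSet_Ioi fun t ht => ?_
  have ht0 : 0 < t := ht
  by_cases ht1 : t < 1
  · have hlt : ENNReal.ofReal t < 1 := by
      rw [← ENNReal.ofReal_one]; exact (ENNReal.ofReal_lt_ofReal_iff one_pos).2 ht1
    refine bm_one ha hb (measurableSet_lt measurable_const hf)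
      (measurableSet_lt measurable_const hg) ?_ ?_ ?_
    · rw [← hf1, lt_iSup_iff] at hlt; exact hlt
    · rw [← hg1, lt_iSup_iff] at hlt; exact hlt
    · intro x hx y hy
      simp only [mem_ofPred_eq] at hx hy ⊢
      refine lt_of_lt_of_le ?_ (H x y)
      have e : ENNReal.ofReal t = ENNReal.ofReal t ^ a * ENNReal.ofReal t ^ b := by
        rw [← ENNReal.rpow_add _ _ (by simpa using ht0) ENNReal.ofReal_ne_top, hab,
          ENNReal.rpow_one]
      rw [e]
      exact ENNReal.mul_lt_mul (ENNReal.rpow_lt_rpow hx ha) (ENNReal.rpow_lt_rpow hy hb)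
  · have hge : (1 : ℝ≥0∞) ≤ ENNReal.ofReal t := by
      rw [← ENNReal.ofReal_one]; exact ENNReal.ofReal_le_ofReal (not_lt.1 ht1)
    have e1 : {x | ENNReal.ofReal t < f x} = ∅ := by
      ext x
      simp only [mem_ofPred_eq, mem_empty_iff_false, iff_false, not_lt]
      exact le_trans (hf1 ▸ le_iSup f x) hge
    have e2 : {x | ENNReal.ofReal t < g x} = ∅ := by
      ext x
      simp only [mem_ofPred_eq, mem_empty_iff_false, iff_false, not_lt]
      exact le_trans (hg1 ▸ le_iSup g x) hge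
    simp [e1, e2]

/-- weighted AM-GM in `ℝ≥0∞` -/
lemma geom_le_arith {a b : ℝ} (ha : 0 < a) (hb : 0 < b) (hab : a + b = 1) (u v : ℝ≥0∞) :
    u ^ a * v ^ b ≤ ENNReal.ofReal a * u + ENNReal.ofReal b * v := by
  by_cases hu : u = ⊤
  · rw [hu, ENNReal.mul_top (by simpa using ha)]; simp
  by_cases hv : v = ⊤
  · rw [hv, ENNReal.mul_top (a := ENNReal.ofReal b) (by simpa using hb)]; simp
  lift u to ℝ≥0 using hu
  lift v to ℝ≥0 using hv
  lift a to ℝ≥0 using ha.le
  lift b to ℝ≥0 using hb.le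
  have := NNReal.geom_mean_le_arith_mean2_weighted a b u v (by exact_mod_cast hab)
  rw [← ENNReal.coe_rpow_of_nonneg _ ha.le, ← ENNReal.coe_rpow_of_nonneg _ hb.le,
    ENNReal.ofReal_coe_nnreal, ENNReal.ofReal_coe_nnreal]
  exact_mod_cast this

/-- One-dimensional Prekopa-Leindler for bounded functions. -/
lemma pl_one_bounded {a b : ℝ} (ha : 0 < a) (hb : 0 < b) (hab : a + b = 1)
    {f g h : ℝ → ℝ≥0∞} (hf : Measurable f) (hg : Measurable g) (hh : Measurable h)
    (hf1 : ⨆ x, f x ≠ ⊤) (hg1 : ⨆ x, g x ≠ ⊤)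
    (H : ∀ x y, f x ^ a * g y ^ b ≤ h (a * x + b * y)) :
    (∫⁻ x, f x) ^ a * (∫⁻ x, g x) ^ b ≤ ∫⁻ x, h x := by
  set F := ⨆ x, f x with hF
  set G := ⨆ x, g x with hG
  by_cases hF0 : F = 0
  · have : ∀ x, f x = 0 := fun x => le_antisymm (hF0 ▸ le_iSup f x) (zero_le)
    simp [this, ENNReal.zero_rpow_of_pos ha]
  by_cases hG0 : G = 0
  · have : ∀ x, g x = 0 := fun x => le_antisymm (hG0 ▸ le_iSup g x) (zero_le)
    simp [this, ENNReal.zero_rpow_of_pos hb]
  set K := F ^ a * G ^ b with hK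
  have hFa0 : F ^ a ≠ 0 := (ENNReal.rpow_pos (pos_iff_ne_zero.2 hF0) hf1).ne'
  have hGb0 : G ^ b ≠ 0 := (ENNReal.rpow_pos (pos_iff_ne_zero.2 hG0) hg1).ne'
  have hFat : F ^ a ≠ ⊤ := ENNReal.rpow_ne_top_of_nonneg ha.le hf1
  have hGbt : G ^ b ≠ ⊤ := ENNReal.rpow_ne_top_of_nonneg hb.le hg1
  have hK0 : K ≠ 0 := mul_ne_zero hFa0 hGb0
  have hKt : K ≠ ⊤ := ENNReal.mul_ne_top hFat hGbt
  have key : ∀ u v : ℝ≥0∞, (F⁻¹ * u) ^ a * (G⁻¹ * v) ^ b = K⁻¹ * (u ^ a * v ^ b) := by
    intro u v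
    rw [ENNReal.mul_rpow_of_nonneg _ _ ha.le, ENNReal.mul_rpow_of_nonneg _ _ hb.le,
      ENNReal.inv_rpow, ENNReal.inv_rpow, hK, ENNReal.mul_inv (Or.inl hFa0) (Or.inl hFat)]
    ring
  have h1 := pl_one_normalised ha hb hab (f := fun x => F⁻¹ * f x) (g := fun x => G⁻¹ * g x)
    (h := fun x => K⁻¹ * h x) (hf.const_mul _) (hg.const_mul _) (hh.const_mul _)
    (by rw [← ENNReal.mul_iSup, ENNReal.inv_mul_cancel hF0 hf1])
    (by rw [← ENNReal.mul_iSup, ENNReal.inv_mul_cancel hG0 hg1])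
    (by intro x y; rw [key]; gcongr; exact H x y)
  have h2 := le_trans (geom_le_arith ha hb hab _ _) h1
  rw [lintegral_const_mul _ hf, lintegral_const_mul _ hg, lintegral_const_mul _ hh, key] at h2
  exact (ENNReal.mul_le_mul_iff_right (ENNReal.inv_ne_zero.2 hKt) (ENNReal.inv_ne_top.2 hK0)).1 h2

lemma rpow_iSup {a : ℝ} (ha : 0 < a) (u : ℕ → ℝ≥0∞) : (⨆ n, u n) ^ a = ⨆ n, u n ^ a :=
  (ENNReal.orderIsoRpow a ha).map_iSup u

/-- One-dimensional Prekopa-Leindler inequality. -/
theorem pl_one {a b : ℝ} (ha : 0 < a) (hb : 0 < b) (hab : a + b = 1)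
    {f g h : ℝ → ℝ≥0∞} (hf : Measurable f) (hg : Measurable g) (hh : Measurable h)
    (H : ∀ x y, f x ^ a * g y ^ b ≤ h (a * x + b * y)) :
    (∫⁻ x, f x) ^ a * (∫⁻ x, g x) ^ b ≤ ∫⁻ x, h x := by
  have trunc : ∀ {f : ℝ → ℝ≥0∞}, Measurable f →
      ∫⁻ x, f x = ⨆ n : ℕ, ∫⁻ x, min (f x) n := by
    intro f hf
    rw [← lintegral_iSup (fun n => hf.min measurable_const)
      (fun n m hnm x => min_le_min_left _ (by exact_mod_cast hnm))]
    refine lintegral_congr fun x => ?_
    rw [← inf_iSup_eq, ENNReal.iSup_natCast]; simp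
  have bd : ∀ (f : ℝ → ℝ≥0∞) (n : ℕ), ⨆ x, min (f x) n ≠ ⊤ := fun f n =>
    ne_top_of_le_ne_top (ENNReal.natCast_ne_top n) (iSup_le fun x => min_le_right _ _)
  rw [trunc hf, trunc hg, rpow_iSup ha, rpow_iSup hb, ENNReal.iSup_mul]
  refine iSup_le fun n => ?_
  rw [ENNReal.mul_iSup]
  refine iSup_le fun m => ?_
  refine pl_one_bounded ha hb hab (hf.min measurable_const) (hg.min measurable_const) hh
    (bd f n) (bd g m) fun x y => le_trans ?_ (H x y)
  gcongr
  · exact min_le_left _ _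
  · exact min_le_left _ _

/-- The Prekopa-Leindler property with weights `a`, `b` for a measure on a real vector space. -/
def HasPL (a b : ℝ) {E : Type*} [Add E] [SMul ℝ E] [MeasurableSpace E] (μ : Measure E) : Prop :=
  ∀ f g h : E → ℝ≥0∞, Measurable f → Measurable g → Measurable h →
    (∀ x y, f x ^ a * g y ^ b ≤ h (a • x + b • y)) →
    (∫⁻ x, f x ∂μ) ^ a * (∫⁻ x, g x ∂μ) ^ b ≤ ∫⁻ x, h x ∂μ

lemma HasPL.prod {a b : ℝ} {E F : Type*} [Add E] [SMul ℝ E] [MeasurableSpace E]
    [Add F] [SMul ℝ F] [MeasurableSpace F] {μ : Measure E} {ν : Measure F} [SFinite ν]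
    (hμ : HasPL a b μ) (hν : HasPL a b ν) : HasPL a b (μ.prod ν) := by
  intro f g h hf hg hh H
  rw [lintegral_prod _ hf.aemeasurable, lintegral_prod _ hg.aemeasurable,
    lintegral_prod _ hh.aemeasurable]
  refine hμ _ _ _ hf.lintegral_prod_right' hg.lintegral_prod_right' hh.lintegral_prod_right' ?_
  intro x y
  refine hν _ _ _ (hf.comp measurable_prodMk_left) (hg.comp measurable_prodMk_left)
    (hh.comp measurable_prodMk_left) ?_
  intro u v
  exact H (x, u) (y, v)

lemma HasPL.of_measurePreserving {a b : ℝ} {E F : Type*} [Add E] [SMul ℝ E] [MeasurableSpace E]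
    [Add F] [SMul ℝ F] [MeasurableSpace F] {μ : Measure E} {ν : Measure F} {e : E → F}
    (he : MeasurePreserving e μ ν) (hlin : ∀ x y, e (a • x + b • y) = a • e x + b • e y)
    (hμ : HasPL a b μ) : HasPL a b ν := by
  intro f g h hf hg hh H
  rw [← he.lintegral_comp hf, ← he.lintegral_comp hg, ← he.lintegral_comp hh]
  refine hμ _ _ _ (hf.comp he.measurable) (hg.comp he.measurable) (hh.comp he.measurable) ?_
  intro x y
  rw [hlin]; exact H _ _

lemma HasPL.smul {a b : ℝ} (ha : 0 < a) (hb : 0 < b) (hab : a + b = 1) {E : Type*} [Add E]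
    [SMul ℝ E] [MeasurableSpace E] {μ : Measure E} (hμ : HasPL a b μ) (c : ℝ≥0∞) :
    HasPL a b (c • μ) := by
  intro f g h hf hg hh H
  simp only [lintegral_smul_measure, smul_eq_mul]
  rw [ENNReal.mul_rpow_of_nonneg _ _ ha.le, ENNReal.mul_rpow_of_nonneg _ _ hb.le]
  have e : c ^ a * c ^ b = c := by
    rw [← ENNReal.rpow_add_of_nonneg _ _ ha.le hb.le, hab, ENNReal.rpow_one]
  calc _ = (c ^ a * c ^ b) * ((∫⁻ x, f x ∂μ) ^ a * (∫⁻ x, g x ∂μ) ^ b) := by ring
    _ ≤ _ := by rw [e]; gcongr; exact hμ f g h hf hg hh H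

lemma hasPL_real {a b : ℝ} (ha : 0 < a) (hb : 0 < b) (hab : a + b = 1) :
    HasPL a b (volume : Measure ℝ) :=
  fun _ _ _ hf hg hh H => pl_one ha hb hab hf hg hh H

lemma hasPL_pi {a b : ℝ} (ha : 0 < a) (hb : 0 < b) (hab : a + b = 1) (n : ℕ) :
    HasPL a b (volume : Measure (Fin n → ℝ)) := by
  induction n with
  | zero =>
    intro f g h _ _ _ H
    rw [Measure.volume_pi_eq_dirac (0 : Fin 0 → ℝ)]
    simp only [lintegral_dirac]
    simpa using H 0 0
  | succ n ih =>
    have h1 : HasPL a b (volume : Measure (ℝ × (Fin n → ℝ))) := (hasPL_real ha hb hab).prod ih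
    refine HasPL.of_measurePreserving
      ((volume_preserving_piFinSuccAbove (fun _ : Fin (n + 1) => ℝ) 0).symm _) ?_ h1
    intro x y
    ext i
    refine Fin.cases ?_ (fun j => ?_) i <;>
      simp [MeasurableEquiv.piFinSuccAbove, Fin.insertNthEquiv]

lemma hasPL_euclidean {a b : ℝ} (ha : 0 < a) (hb : 0 < b) (hab : a + b = 1) (n : ℕ) :
    HasPL a b (volume : Measure (EuclideanSpace ℝ (Fin n))) :=
  HasPL.of_measurePreserving (PiLp.volume_preserving_toLp (Fin n)) (fun _ _ => rfl)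
    (hasPL_pi ha hb hab n)

/-- Prekopa-Leindler for any additive Haar measure on a finite-dimensional real normed space. -/
theorem hasPL_haar {a b : ℝ} (ha : 0 < a) (hb : 0 < b) (hab : a + b = 1) {E : Type*}
    [NormedAddCommGroup E] [NormedSpace ℝ E] [FiniteDimensional ℝ E] [MeasurableSpace E]
    [BorelSpace E] (μ : Measure E) [μ.IsAddHaarMeasure] : HasPL a b μ := by
  let L : (Fin (Module.finrank ℝ E) → ℝ) ≃L[ℝ] E :=
    (Module.finBasis ℝ E).equivFun.symm.toContinuousLinearEquiv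
  have h1 : HasPL a b (Measure.map L volume) :=
    HasPL.of_measurePreserving ⟨L.continuous.measurable, rfl⟩ (by intro x y; simp)
      (hasPL_pi ha hb hab _)
  have h2 := Measure.isAddLeftInvariant_eq_smul μ (Measure.map L volume)
  rw [h2]
  exact h1.smul ha hb hab _

/-- **Prekopa-Leindler inequality** on Euclidean space. -/
theorem prekopa_leindler {d : ℕ} {a b : ℝ} (ha : 0 < a) (hb : 0 < b) (hab : a + b = 1)
    {f g h : EuclideanSpace ℝ (Fin d) → ℝ≥0∞} (hf : Measurable f) (hg : Measurable g)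
    (hh : Measurable h) (H : ∀ x y, f x ^ a * g y ^ b ≤ h (a • x + b • y)) :
    (∫⁻ x, f x) ^ a * (∫⁻ x, g x) ^ b ≤ ∫⁻ x, h x :=
  hasPL_euclidean ha hb hab d f g h hf hg hh H

/-- Multiplicative Brunn-Minkowski from the Prekopa-Leindler property. -/
theorem HasPL.measure_le {a b : ℝ} (ha : 0 < a) (hb : 0 < b) {E : Type*} [Add E] [SMul ℝ E]
    [MeasurableSpace E] {μ : Measure E} (hμ : HasPL a b μ) {A B M : Set E}
    (hA : MeasurableSet A) (hB : MeasurableSet B) (hM : MeasurableSet M)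
    (h : ∀ x ∈ A, ∀ y ∈ B, a • x + b • y ∈ M) : μ A ^ a * μ B ^ b ≤ μ M := by
  have := hμ (A.indicator 1) (B.indicator 1) (M.indicator 1) (measurable_one.indicator hA)
    (measurable_one.indicator hB) (measurable_one.indicator hM) (by
      intro x y
      by_cases hx : x ∈ A
      · by_cases hy : y ∈ B
        · simp [hx, hy, h x hx y hy]
        · simp [hy, ENNReal.zero_rpow_of_pos hb]
      · simp [hx, ENNReal.zero_rpow_of_pos ha])
  rwa [lintegral_indicator_one hA, lintegral_indicator_one hB, lintegral_indicator_one hM] at this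

lemma mul_le_sq_of_half {u v w : ℝ≥0∞} (h : u ^ (1 / 2 : ℝ) * v ^ (1 / 2 : ℝ) ≤ w) :
    u * v ≤ w ^ 2 := by
  have h2 : (u ^ (1 / 2 : ℝ) * v ^ (1 / 2 : ℝ)) ^ 2 = u * v := by
    rw [mul_pow, ← ENNReal.rpow_natCast, ← ENNReal.rpow_natCast, ← ENNReal.rpow_mul,
      ← ENNReal.rpow_mul]
    norm_num
  rw [← h2]; gcongr

lemma half_le_of_mul_le_sq {u v w : ℝ≥0∞} (h : u * v ≤ w ^ 2) :
    u ^ (1 / 2 : ℝ) * v ^ (1 / 2 : ℝ) ≤ w := by
  rw [← ENNReal.mul_rpow_of_nonneg _ _ (by norm_num)]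
  calc (u * v) ^ (1 / 2 : ℝ) ≤ (w ^ 2) ^ (1 / 2 : ℝ) := by gcongr
    _ = w := by
      rw [← ENNReal.rpow_natCast, ← ENNReal.rpow_mul]; norm_num

lemma midpoint_eq_half {E : Type*} [AddCommGroup E] [Module ℝ E] (x y : E) :
    midpoint ℝ x y = (1 / 2 : ℝ) • x + (1 / 2 : ℝ) • y := by
  rw [midpoint_eq_smul_add, smul_add]; norm_num

/-- Prekopa-Leindler at the midpoint, squared form. -/
theorem prekopa_leindler_midpoint {d : ℕ}
    {f g h : EuclideanSpace ℝ (Fin d) → ℝ≥0∞} (hf : Measurable f) (hg : Measurable g)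
    (hh : Measurable h) (H : ∀ x y, f x * g y ≤ h (midpoint ℝ x y) ^ 2) :
    (∫⁻ x, f x) * (∫⁻ x, g x) ≤ (∫⁻ x, h x) ^ 2 := by
  refine mul_le_sq_of_half (prekopa_leindler (by norm_num) (by norm_num) (by norm_num) hf hg hh ?_)
  intro x y
  rw [← midpoint_eq_half]
  exact half_le_of_mul_le_sq (H x y)

/-- **Multiplicative Brunn-Minkowski inequality** at the midpoint. -/
theorem volume_mul_le_sq {d : ℕ} (A B M : Set (EuclideanSpace ℝ (Fin d)))
    (hA : MeasurableSet A) (hB : MeasurableSet B) (hM : MeasurableSet M)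
    (h : ∀ x ∈ A, ∀ y ∈ B, midpoint ℝ x y ∈ M) :
    MeasureTheory.volume A * MeasureTheory.volume B ≤ MeasureTheory.volume M ^ 2 := by
  refine mul_le_sq_of_half ((hasPL_euclidean (by norm_num) (by norm_num) (by norm_num) d).measure_le
    (by norm_num) (by norm_num) hA hB hM ?_)
  intro x hx y hy
  rw [← midpoint_eq_half]
  exact h x hx y hy

end Crest.Agent.Lib.BM
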